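import Vale.Agent.Lib.P007.Top
import Vale.Agent.Lib.P007.Field
import Vale.Agent.Lib.P007.Nonempty

open Matrix MeasureTheory Filter Topology
open Vale.Agent.Lib.P007

namespace Vale.Agent.Results.P007.QuarticObstruction

/-- For `n = 4` the equidistribution statement fails for a sequence of orders of one totally real
quartic field: there are a number field `K` of degree `4` with four distinct real embeddings `σ`,
orders `O i` (subrings with `ℤ`-basis `b i`) with `|Disc (O i)| → ∞` and non-empty packets, and one test function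
`f ∈ C_c(X_4)` that vanishes on all the packets although its integral against every
`SL_4(ℝ)`-invariant probability measure is positive. -/
theorem result :
    ∃ (K : Type) (_ : Field K) (_ : NumberField K) (σ : Fin 4 → K →+* ℝ)
      (O : ℕ → Subring K) (b : ℕ → Fin 4 → K),
      Module.finrank ℚ K = 4 ∧ Function.Injective σ ∧
      (∀ i, LinearIndependent ℚ (b i) ∧
        (O i : Set K) = (Submodule.span ℤ (Set.range (b i)) : Set K)) ∧
      Tendsto (fun i => |Algebra.discr ℚ (b i)|) atTop atTop ∧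
      (∀ i, (packetOrbits σ (O i)).Nonempty) ∧
      ∃ f : X 4 → ℝ, Continuous f ∧ HasCompactSupport f ∧
        (∀ i, ∀ x ∈ packetOrbits σ (O i), f x = 0) ∧
        ∀ [MeasurableSpace (X 4)] [BorelSpace (X 4)] (m : Measure (X 4)) [IsProbabilityMeasure m]
          [SMulInvariantMeasure (SLR 4) (X 4) m],
          0 < ∫ x, f x ∂m ∧
          ∀ μ : ℕ → Measure (X 4), (∀ i, μ i (packetOrbits σ (O i))ᶜ = 0) →
            (∀ i, ∫ x, f x ∂(μ i) = 0) ∧
            ∀ φ : ℕ → ℕ, ¬ Tendsto (fun i => ∫ x, f x ∂(μ (φ i))) atTop (𝓝 (∫ x, f x ∂m)) := by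
  have hD : ¬ ∃ M : Matrix (Fin 4) (Fin 4) ℤ,
      (Matrix.diagonal fun j => σK j αK) = M.map (Int.cast : ℤ → ℝ) := by
    rintro ⟨M, hM⟩
    have h00 := congrFun (congrFun hM 0) 0
    rw [Matrix.diagonal_apply_eq, σK_α_zero, Matrix.map_apply] at h00
    exact irrational_sqrt_two.ne_int _ h00
  obtain ⟨f, hfc, hfs, -, hf0, hfm⟩ := exists_bump 4 _ hD
  have hvan : ∀ i : ℕ, ∀ x ∈ packetOrbits σK (Of (i + 1)), f x = 0 := by
    intro i x hx
    obtain ⟨g, hg, rfl⟩ := packet_subset_stab σK (Of (i + 1)) αK (αK_mem _) x hx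
    exact hf0 g hg
  refine ⟨KK, inferInstance, inferInstance, σK, fun i => Of (i + 1), fun i => bf (i + 1),
    finrank_KK, σK_inj, fun i => ⟨linInd_bf _ (Nat.succ_ne_zero i), Of_coe _⟩, ?_,
    fun i => packet_nonempty _ (Nat.succ_ne_zero i), f, hfc, hfs, hvan, ?_⟩
  · -- the discriminants tend to infinity
    have hc : 0 < |Algebra.discr ℚ (⇑pbB)| := abs_pos.mpr discr_pbB_ne
    have h1 : ∀ i : ℕ, |Algebra.discr ℚ (bf (i + 1))|
        = ((i + 1 : ℕ) : ℚ) ^ 4 * |Algebra.discr ℚ (⇑pbB)| := by
      intro i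
      rw [discr_bf, abs_mul, abs_of_nonneg (by positivity)]
    simp only [h1]
    apply Tendsto.atTop_mul_const hc
    have h2 : Tendsto (fun i : ℕ => ((i + 1 : ℕ) : ℚ)) atTop atTop :=
      tendsto_natCast_atTop_atTop.comp (tendsto_add_atTop_nat 1)
    exact (tendsto_pow_atTop (by norm_num)).comp h2
  · intro _ _ m _ _
    have hpos := hfm m
    refine ⟨hpos, fun μ hμ => ?_⟩
    have hz : ∀ i, ∫ x, f x ∂(μ i) = 0 := by
      intro i
      have : f =ᵐ[μ i] 0 := by
        rw [Filter.EventuallyEq, ae_iff]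
        refine measure_mono_null ?_ (hμ i)
        intro x hx hx'
        exact hx (hvan i x hx')
      rw [integral_congr_ae this]
      simp
    refine ⟨hz, fun φ h => ?_⟩
    simp only [hz] at h
    have := tendsto_nhds_unique h tendsto_const_nhds
    exact hpos.ne this.symm

end Vale.Agent.Results.P007.QuarticObstruction
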